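import Vale.Agent.P102.Main

namespace Vale.Agent.Results.P102.Associated

open MeasureTheory Set Vale.Agent.P102

/-- Mixing implies mixing of all orders when some generating family has past and future
increasing events that are positively correlated, or negatively correlated. -/
theorem result {Ω : Type*} [m : MeasurableSpace Ω] (μ : Measure Ω) [IsProbabilityMeasure μ]
    (T : Equiv.Perm Ω) (hT : MeasurePreserving T μ μ) (hT' : Measurable T.symm)
    (𝒢 : Set (Set Ω))
    (hgen : MeasurableSpace.generateFrom {B | ∃ G ∈ 𝒢, ∃ n : ℤ, B = (T ^ n) ⁻¹' G} = m)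
    (hassoc :
      (∀ A B, Inc T 𝒢 (Iic 0) A → Inc T 𝒢 (Ioi 0) B → μ.real A * μ.real B ≤ μ.real (A ∩ B)) ∨
      (∀ A B, Inc T 𝒢 (Iic 0) A → Inc T 𝒢 (Ioi 0) B → μ.real (A ∩ B) ≤ μ.real A * μ.real B))
    (hmix : Mixing μ T) (k : ℕ) : MixingOfOrder μ T k := by
  rcases hassoc with h | h
  · refine main hT hT' hgen (Or.inl rfl) (fun A B hA hB => ?_) hmix k
    have := h A B hA hB
    unfold cov
    linarith
  · refine main hT hT' hgen (Or.inr rfl) (fun A B hA hB => ?_) hmix k
    have := h A B hA hB
    unfold cov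
    linarith

end Vale.Agent.Results.P102.Associated
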